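import Vale.Agent.Lib.P181.Dim

/-- The monomial basis of `Sym^a (Sym^b V)`, `dim V = n`, is indexed by the multisets of size `a`
of multisets of size `b` of `Fin n`.  For `1 ≤ a ≤ b` there are at most as many of them as there are
multisets of size `b` of multisets of size `a`; in closed form,
`C(C(n+b-1,b)+a-1,a) ≤ C(C(n+a-1,a)+b-1,b)`. -/
theorem Vale.Agent.Results.P181.DimensionInequality.result (n a b : ℕ) (ha : 1 ≤ a) (hab : a ≤ b) :
    Fintype.card (Sym (Sym (Fin n) b) a) ≤ Fintype.card (Sym (Sym (Fin n) a) b) ∧
    ((n + b - 1).choose b + a - 1).choose a ≤ ((n + a - 1).choose a + b - 1).choose b := by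
  have h := Vale.Agent.Lib.P181.main n a b ha hab
  constructor
  · rw [Sym.card_sym_eq_multichoose, Sym.card_sym_eq_multichoose, Sym.card_sym_eq_multichoose,
      Sym.card_sym_eq_multichoose, Fintype.card_fin]
    exact h
  · simpa only [Nat.multichoose_eq] using h
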